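/-
P235-M, additive rounds (helper26): Lipschitz maps on finite subsets of the line extend.
-/
import Vale.Agent.P235.MathlibUsed

set_option linter.all false
set_option autoImplicit false

namespace Vale.Agent.P235.R2.H26

theorem line_ext {E : Type} [NormedAddCommGroup E] [NormedSpace ℝ E] {D : ℝ} (hD : 0 ≤ D)
    (S : Finset ℝ) (f : ℝ → E) (hf : ∀ x ∈ S, ∀ y ∈ S, ‖f x - f y‖ ≤ D * |x - y|) :
    ∃ g : ℝ → E, (∀ x y, ‖g x - g y‖ ≤ D * |x - y|) ∧ ∀ x ∈ S, g x = f x := by
  classical
  induction S using Finset.induction_on_max with
  | empty => exact ⟨fun _ => 0, fun x y => by simpa using mul_nonneg hD (abs_nonneg _), by simp⟩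
  | insert m S hm ih =>
    obtain ⟨g, hg, hgf⟩ := ih fun x hx y hy =>
      hf x (Finset.mem_insert_of_mem hx) y (Finset.mem_insert_of_mem hy)
    rcases S.eq_empty_or_nonempty with rfl | hne
    · refine ⟨fun _ => f m, fun x y => by simpa using mul_nonneg hD (abs_nonneg _), ?_⟩
      intro x hx
      have : x = m := by simpa using hx
      rw [this]
    · obtain ⟨M, hMS, hMmax⟩ : ∃ M ∈ S, ∀ x ∈ S, x ≤ M :=
        ⟨S.max' hne, S.max'_mem hne, fun x hx => S.le_max' x hx⟩
      have hMm : M < m := hm M hMS
      have hpos : 0 < m - M := by linarith
      have hfm : ‖f m - f M‖ ≤ D * (m - M) := by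
        have := hf m (Finset.mem_insert_self m S) M (Finset.mem_insert_of_mem hMS)
        rwa [abs_of_pos hpos] at this
      -- the increment
      let c : ℝ → ℝ := fun τ => (max M (min τ m) - M) / (m - M)
      have key : ∀ x y : ℝ, x ≤ y →
          |min x M - min y M| + |max M (min x m) - max M (min y m)| ≤ y - x := by
        intro x y hxy
        have h1 : min x M ≤ min y M := min_le_min_right M hxy
        have h2 : max M (min x m) ≤ max M (min y m) := max_le_max_left M (min_le_min_right m hxy)
        rw [abs_of_nonpos (by linarith), abs_of_nonpos (by linarith)]
        rcases le_total y M with h3 | h3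
        · have e1 : min y M = y := min_eq_left h3
          have e2 : min x M = x := min_eq_left (hxy.trans h3)
          have e3 : min y m = y := min_eq_left (by linarith)
          have e4 : min x m = x := min_eq_left (by linarith)
          rw [e1, e2, e3, e4, max_eq_left h3, max_eq_left (hxy.trans h3)]
          linarith
        · rcases le_total x M with h4 | h4
          · have e1 : min y M = M := min_eq_right h3
            have e2 : min x M = x := min_eq_left h4
            have e4 : min x m = x := min_eq_left (by linarith)
            have e5 : max M (min y m) ≤ y := max_le h3 (min_le_left _ _)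
            rw [e1, e2, e4, max_eq_left h4]
            linarith
          · have e1 : min y M = M := min_eq_right h3
            have e2 : min x M = M := min_eq_right h4
            rw [e1, e2]
            rcases le_total x m with h5 | h5
            · have e4 : min x m = x := min_eq_left h5
              have e5 : max M (min y m) ≤ y := max_le h3 (min_le_left _ _)
              rw [e4, max_eq_right h4]
              linarith
            · have e4 : min x m = m := min_eq_right h5
              have e5 : min y m = m := min_eq_right (h5.trans hxy)
              rw [e4, e5]
              linarith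
      have key' : ∀ x y : ℝ,
          |min x M - min y M| + |max M (min x m) - max M (min y m)| ≤ |x - y| := by
        intro x y
        rcases le_total x y with h | h
        · rw [abs_sub_comm x y, abs_of_nonneg (by linarith : (0 : ℝ) ≤ y - x)]
          exact key x y h
        · rw [abs_of_nonneg (by linarith : (0 : ℝ) ≤ x - y), abs_sub_comm (min x M),
            abs_sub_comm (max M (min x m))]
          exact key y x h
      refine ⟨fun τ => g (min τ M) + c τ • (f m - f M), fun x y => ?_, fun x hx => ?_⟩
      · have e : g (min x M) + c x • (f m - f M) - (g (min y M) + c y • (f m - f M)) =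
            (g (min x M) - g (min y M)) + (c x - c y) • (f m - f M) := by
          rw [sub_smul]; abel
        show ‖g (min x M) + c x • (f m - f M) - (g (min y M) + c y • (f m - f M))‖ ≤ _
        rw [e]
        refine (norm_add_le _ _).trans ?_
        rw [norm_smul, Real.norm_eq_abs]
        have h1 := hg (min x M) (min y M)
        have h2 : |c x - c y| * ‖f m - f M‖ ≤ D * |max M (min x m) - max M (min y m)| := by
          have e2 : c x - c y = (max M (min x m) - max M (min y m)) / (m - M) := by
            show (max M (min x m) - M) / (m - M) - (max M (min y m) - M) / (m - M) = _
            rw [← sub_div]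
            congr 1
            ring
          rw [e2, abs_div, abs_of_pos hpos]
          calc |max M (min x m) - max M (min y m)| / (m - M) * ‖f m - f M‖
              ≤ |max M (min x m) - max M (min y m)| / (m - M) * (D * (m - M)) :=
                mul_le_mul_of_nonneg_left hfm (div_nonneg (abs_nonneg _) hpos.le)
            _ = _ := by
                field_simp
        have h3 := mul_le_mul_of_nonneg_left (key' x y) hD
        linarith
      · rcases Finset.mem_insert.1 hx with rfl | hx
        · have e1 : min x M = M := min_eq_right hMm.le
          have e2 : c x = 1 := by
            show (max M (min x x) - M) / (x - M) = 1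
            rw [min_self, max_eq_right hMm.le, div_self hpos.ne']
          show g (min x M) + c x • (f x - f M) = f x
          rw [e1, e2, one_smul, hgf M hMS]
          abel
        · have h1 := hMmax x hx
          have e1 : min x M = x := min_eq_left h1
          have e2 : c x = 0 := by
            show (max M (min x m) - M) / (m - M) = 0
            rw [min_eq_left (h1.trans hMm.le), max_eq_left h1, sub_self, zero_div]
          show g (min x M) + c x • (f m - f M) = f x
          rw [e1, e2, zero_smul, add_zero, hgf x hx]

end Vale.Agent.P235.R2.H26
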