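/-
P235-M, TERM(L) (helper26): no plane map on six vertices contains K_{3,3}.
-/
import Vale.Agent.P235.R2.H611.K33a
import Vale.Agent.P235.R2.H105.Del

set_option linter.all false
set_option autoImplicit false

namespace Vale.Agent.P235.Quo

open SimpleGraph

/-- a graph on `3 + 3` vertices with all cross edges is connected -/
theorem k33_conn (Q : SimpleGraph (Fin 3 ⊕ Fin 3)) (h : ∀ i j, Q.Adj (.inl i) (.inr j)) :
    Q.Connected := by
  have h1 : ∀ i, Q.Reachable (.inl i) (.inr 0) := fun i => (h i 0).reachable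
  have h2 : ∀ j, Q.Reachable (.inr j) (.inr 0) := fun j =>
    (h 0 j).symm.reachable.trans (h 0 0).reachable
  have h3 : ∀ v, Q.Reachable v (.inr 0) := by
    rintro (i | j)
    · exact h1 i
    · exact h2 j
  exact ⟨fun u v => (h3 u).trans (h3 v).symm⟩

theorem dart_card (Q : SimpleGraph (Fin 3 ⊕ Fin 3)) : Nat.card Q.Dart = 2 * Nat.card Q.edgeSet := by
  classical
  rw [Nat.card_eq_fintype_card, Nat.card_eq_fintype_card, Q.dart_card_eq_twice_card_edges,
    ← SimpleGraph.edgeFinset_card]

/-- the bipartite case: faces have at least four darts -/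
theorem noK33_bip (Q : SimpleGraph (Fin 3 ⊕ Fin 3)) (h : ∀ i j, Q.Adj (.inl i) (.inr j))
    (hbip : ∀ u v, Q.Adj u v → (u.isLeft ↔ v.isRight)) (σ : Equiv.Perm Q.Dart)
    (hP : PlaneMap Q σ) : False := by
  classical
  have : Fintype Q.Dart := Fintype.ofFinite _
  set F := Quotient (Equiv.Perm.SameCycle.setoid (faceNext σ)) with hF
  have : Fintype F := Fintype.ofFinite _
  have hfst : ∀ d : Q.Dart, (faceNext σ d).fst = d.snd := fun d => hP.fst d.symm
  -- sides alternate
  have hside : ∀ d : Q.Dart, (d.fst.isLeft ↔ d.snd.isRight) := fun d => hbip _ _ d.adj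
  have hflip : ∀ d : Q.Dart, ((faceNext σ d).fst.isLeft = true ↔ ¬ (d.fst.isLeft = true)) := by
    intro d
    rw [hfst]
    have h1 := hside d
    rcases hu : d.fst with i | i <;> rcases hv : d.snd with j | j <;> simp [hu, hv] at h1 ⊢
  have hne1 : ∀ d : Q.Dart, faceNext σ d ≠ d := by
    intro d e
    have h1 := hflip d
    rw [e] at h1
    tauto
  -- no face of length two
  have hne2 : ∀ d : Q.Dart, faceNext σ (faceNext σ d) ≠ d := by
    intro d e
    have h1 : (faceNext σ d).snd = d.fst := by
      rw [← hfst, e]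
    have h2 : faceNext σ d = d.symm :=
      SimpleGraph.Dart.ext _ _ (Prod.ext (hfst d) h1)
    have h3 : σ d.symm = d.symm := h2
    -- another dart at the same vertex
    obtain ⟨d', hd', hne⟩ : ∃ d' : Q.Dart, d'.fst = d.symm.fst ∧ d' ≠ d.symm := by
      rcases hu : d.symm.fst with i | i
      · by_cases h4 : d.symm.snd = .inr 0
        · refine ⟨⟨(.inl i, .inr 1), h i 1⟩, rfl, fun e => ?_⟩
          have : (Sum.inr 1 : Fin 3 ⊕ Fin 3) = d.symm.snd :=
            congrArg (fun x : Q.Dart => x.snd) e
          rw [h4] at this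
          exact absurd (Sum.inr.inj this) (by decide)
        · refine ⟨⟨(.inl i, .inr 0), h i 0⟩, rfl, fun e => ?_⟩
          exact h4 (congrArg (fun x : Q.Dart => x.snd) e).symm
      · by_cases h4 : d.symm.snd = .inl 0
        · refine ⟨⟨(.inr i, .inl 1), (h 1 i).symm⟩, rfl, fun e => ?_⟩
          have : (Sum.inl 1 : Fin 3 ⊕ Fin 3) = d.symm.snd :=
            congrArg (fun x : Q.Dart => x.snd) e
          rw [h4] at this
          exact absurd (Sum.inl.inj this) (by decide)
        · refine ⟨⟨(.inr i, .inl 0), (h 0 i).symm⟩, rfl, fun e => ?_⟩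
          exact h4 (congrArg (fun x : Q.Dart => x.snd) e).symm
    have h5 := hP.cyc d.symm d' hd'.symm
    have h6 : Function.IsFixedPt σ d.symm := h3
    exact hne (Equiv.Perm.SameCycle.eq_of_left h5 h6).symm
  have hne3 : ∀ d : Q.Dart, faceNext σ (faceNext σ (faceNext σ d)) ≠ d := by
    intro d e
    have h1 := hflip d
    have h2 := hflip (faceNext σ d)
    have h3 := hflip (faceNext σ (faceNext σ d))
    rw [e] at h3
    tauto
  -- every face has at least four darts
  have hfour : ∀ c : F, 4 ≤ (Finset.univ.filter fun d : Q.Dart => (Quotient.mk _ d : F) = c).card := by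
    intro c
    induction c using Quotient.inductionOn with
    | h d =>
      have hmk : ∀ d : Q.Dart, (Quotient.mk _ (faceNext σ d) : F) = Quotient.mk _ d := fun d =>
        Quotient.sound (Equiv.Perm.sameCycle_apply_left.2 (Equiv.Perm.SameCycle.refl _ _))
      have hsub : ({d, faceNext σ d, faceNext σ (faceNext σ d),
          faceNext σ (faceNext σ (faceNext σ d))} : Finset Q.Dart) ⊆
          Finset.univ.filter fun d' : Q.Dart => (Quotient.mk _ d' : F) = Quotient.mk _ d := by
        intro x hx
        simp only [Finset.mem_insert, Finset.mem_singleton] at hx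
        rw [Finset.mem_filter]
        refine ⟨Finset.mem_univ _, ?_⟩
        rcases hx with rfl | rfl | rfl | rfl
        · rfl
        · exact hmk _
        · rw [hmk, hmk]
        · rw [hmk, hmk, hmk]
      refine le_trans (le_of_eq ?_) (Finset.card_le_card hsub)
      have inj := (faceNext σ).injective
      rw [Finset.card_insert_of_notMem, Finset.card_insert_of_notMem,
        Finset.card_insert_of_notMem, Finset.card_singleton]
      · rw [Finset.mem_singleton]
        exact fun e => hne1 _ (inj (inj e)).symm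
      · simp only [Finset.mem_insert, Finset.mem_singleton, not_or]
        exact ⟨fun e => hne1 _ (inj e).symm, fun e => hne2 _ (inj e).symm⟩
      · simp only [Finset.mem_insert, Finset.mem_singleton, not_or]
        exact ⟨fun e => hne1 _ e.symm, fun e => hne2 _ e.symm, fun e => hne3 _ e.symm⟩
  have hcount : Fintype.card F * 4 ≤ Fintype.card Q.Dart := by
    have h1 := Finset.card_eq_sum_card_fiberwise (s := (Finset.univ : Finset Q.Dart))
      (t := (Finset.univ : Finset F)) (f := fun d => (Quotient.mk _ d : F))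
      (fun _ _ => Finset.mem_coe.2 (Finset.mem_univ _))
    rw [Finset.card_univ] at h1
    rw [h1]
    calc Fintype.card F * 4 = ∑ _c : F, 4 := by simp
      _ ≤ _ := Finset.sum_le_sum fun c _ => hfour c
  -- nine edges
  have : Fintype Q.edgeSet := Fintype.ofFinite _
  have hdart : Fintype.card Q.Dart = 2 * Nat.card Q.edgeSet := by
    rw [← Nat.card_eq_fintype_card]
    exact dart_card Q
  have hnine : 9 ≤ Nat.card Q.edgeSet := by
    rw [Nat.card_eq_fintype_card, ← SimpleGraph.edgeFinset_card]
    have h1 : (Finset.univ.image fun q : Fin 3 × Fin 3 =>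
        (s(Sum.inl q.1, Sum.inr q.2) : Sym2 (Fin 3 ⊕ Fin 3))) ⊆ Q.edgeFinset := by
      intro e he
      rw [Finset.mem_image] at he
      obtain ⟨q, _, rfl⟩ := he
      rw [SimpleGraph.mem_edgeFinset]
      exact h q.1 q.2
    refine le_trans (le_of_eq ?_) (Finset.card_le_card h1)
    rw [Finset.card_image_of_injective]
    · simp
    · rintro ⟨a, b⟩ ⟨c, d⟩ e
      rcases Sym2.eq_iff.1 e with ⟨h1, h2⟩ | ⟨h1, h2⟩
      · exact Prod.ext (Sum.inl.inj h1) (Sum.inr.inj h2)
      · exact absurd h1 (by simp)
  have heul := hP.euler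
  rw [Nat.card_eq_fintype_card (α := F)] at heul
  have h6 : Nat.card (Fin 3 ⊕ Fin 3) = 6 := by simp
  rw [h6] at heul
  omega

theorem noK33 : NoK33 := by
  intro Q
  induction Q using WellFoundedLT.induction with
  | ind Q ih =>
  rintro h ⟨σ, hP⟩
  classical
  by_cases hbip : ∀ u v, Q.Adj u v → (u.isLeft ↔ v.isRight)
  · exact noK33_bip Q h hbip σ hP
  · push Not at hbip
    obtain ⟨u, v, huv, hb⟩ := hbip
    set e : Q.Dart := ⟨(u, v), huv⟩ with he
    have hcross : ∀ i j, (Q.deleteEdges {e.edge}).Adj (.inl i) (.inr j) := by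
      intro i j
      rw [SimpleGraph.deleteEdges_adj]
      refine ⟨h i j, ?_⟩
      rw [Set.mem_singleton_iff]
      intro h1
      have h2 : s(Sum.inl i, Sum.inr j) = s(u, v) := h1
      rcases Sym2.eq_iff.1 h2 with ⟨rfl, rfl⟩ | ⟨rfl, rfl⟩ <;> simp at hb
    have hc := k33_conn _ hcross
    obtain ⟨σ', hP', -, -⟩ := R2.H105.del_step hP e
      (R2.H105.two_sides (k33_conn Q h) hP e hc) hc
    refine ih (Q.deleteEdges {e.edge}) ?_ hcross ⟨σ', hP'⟩
    refine lt_of_le_of_ne (SimpleGraph.deleteEdges_le _) ?_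
    intro h1
    have h2 : (Q.deleteEdges {e.edge}).Adj u v := by rw [h1]; exact huv
    rw [SimpleGraph.deleteEdges_adj] at h2
    exact h2.2 rfl

end Vale.Agent.P235.Quo
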