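/-
P235-M, wider class W1 (helper26): plane graphs in which every VERTEX lies on a geodesic between
two vertices s, t of one face (edges need not be tight).  The literal rows.
-/
import Vale.Agent.P235.R2.RED.Stmts

namespace Vale.Agent.P235.W1

open Vale.Agent.P235 Vale.Agent.P235.Red

/-- the step from `u` to `v` is tight: it goes up by its full length -/
def Tt {V : Type} (G : SimpleGraph V) (ℓ : Sym2 V → ℝ) (h : V → ℝ) (u v : V) : Prop :=
  G.Adj u v ∧ h v - h u = ℓ s(u, v)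

/-- a non-tight edge -/
def NT {V : Type} (G : SimpleGraph V) (ℓ : Sym2 V → ℝ) (h : V → ℝ) (u v : V) : Prop :=
  G.Adj u v ∧ ¬ Tt G ℓ h u v ∧ ¬ Tt G ℓ h v u

/-- `h` is 1-Lipschitz, every vertex other than `s` has a tight edge down, every vertex other than
`t` has a tight edge up, and every non-tight edge is strictly shorter than all walks avoiding it. -/
structure St {V : Type} (G : SimpleGraph V) (ℓ : Sym2 V → ℝ) (h : V → ℝ) (s t : V) : Prop where
  pos : ∀ e ∈ G.edgeSet, 0 < ℓ e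
  lip : ∀ u v, G.Adj u v → h v - h u ≤ ℓ s(u, v)
  low : ∀ v, v ≠ s → ∃ u, Tt G ℓ h u v
  high : ∀ v, v ≠ t → ∃ w, Tt G ℓ h v w
  nr : ∀ u v, NT G ℓ h u v → ∀ p : G.Walk u v, s(u, v) ∉ p.edges → ℓ s(u, v) < (p.edges.map ℓ).sum

/-- tight order -/
def Le {V : Type} (G : SimpleGraph V) (ℓ : Sym2 V → ℝ) (h : V → ℝ) : V → V → Prop :=
  Relation.ReflTransGen (Tt G ℓ h)

/-- replace the edge `ab` by a new vertex `none` joined to `a`, `b`, `w` -/
def star {V : Type} (G : SimpleGraph V) (a b w : V) : SimpleGraph (Option V) where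
  Adj
    | some x, some y => G.Adj x y ∧ s(x, y) ≠ s(a, b)
    | some x, none => x = a ∨ x = b ∨ x = w
    | none, some x => x = a ∨ x = b ∨ x = w
    | none, none => False
  symm := ⟨by
    rintro (_ | x) (_ | y) h
    · exact h
    · exact h
    · exact h
    · exact ⟨h.1.symm, by rw [Sym2.eq_swap]; exact h.2⟩⟩
  loopless := ⟨by
    rintro (_ | x) h
    · exact h
    · exact G.irrefl h.1⟩

/-- height `z` of the new vertex -/
def hS {V : Type} (h : V → ℝ) (z : ℝ) : Option V → ℝ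
  | some x => h x
  | none => z

/-- lengths after the replacement: old ones between old vertices, height differences at the new
vertex -/
noncomputable def lS {V : Type} (ℓ : Sym2 V → ℝ) (h : V → ℝ) (z : ℝ) : Sym2 (Option V) → ℝ :=
  Sym2.lift ⟨fun x y => match x, y with
    | some x, some y => ℓ s(x, y)
    | some x, none => |z - h x|
    | none, some x => |z - h x|
    | none, none => 0, by
      rintro (_ | x) (_ | y)
      · rfl
      · rfl
      · rfl
      · show ℓ s(x, y) = ℓ s(y, x)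
        rw [Sym2.eq_swap]⟩

/-- (S) plane surgery. -/
def RowS : Prop :=
  ∀ (V : Type) [Finite V] (G : SimpleGraph V) (σ : Equiv.Perm G.Dart) (d₀ : G.Dart) (a b w s t : V)
    (hab : G.Adj a b), G.Connected → PlaneMap G σ → w ≠ a → w ≠ b →
    w ∈ onFace σ ⟨(a, b), hab⟩ → s ∉ onFace σ ⟨(a, b), hab⟩ →
    s ∈ onFace σ d₀ → t ∈ onFace σ d₀ →
    ∃ (σ' : Equiv.Perm (star G a b w).Dart) (d₁ : (star G a b w).Dart),
      (star G a b w).Connected ∧ PlaneMap (star G a b w) σ' ∧
      some s ∈ onFace σ' d₁ ∧ some t ∈ onFace σ' d₁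

/-- (M) metric part of the surgery. -/
def RowM : Prop :=
  ∀ (V : Type) [Finite V] (G : SimpleGraph V) (ℓ : Sym2 V → ℝ) (h : V → ℝ) (s t a b w : V),
    G.Connected → St G ℓ h s t → NT G ℓ h a b → Le G ℓ h a w → Le G ℓ h b w →
    St (star G a b w) (lS ℓ h ((h a + h b + ℓ s(a, b)) / 2)) (hS h ((h a + h b + ℓ s(a, b)) / 2))
      (some s) (some t) ∧
    (∀ x y, pathDist (star G a b w) (lS ℓ h ((h a + h b + ℓ s(a, b)) / 2)) (some x) (some y) =
      pathDist G ℓ x y) ∧
    (∀ p q, NT (star G a b w) (lS ℓ h ((h a + h b + ℓ s(a, b)) / 2))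
        (hS h ((h a + h b + ℓ s(a, b)) / 2)) p q ↔
      ∃ x y, p = some x ∧ q = some y ∧ NT G ℓ h x y ∧ s(x, y) ≠ s(a, b))

/-- (F) if there is a non-tight edge, there is one, `ab`, with a common upper bound `w` of `a`, `b`
in the tight order on the face of the dart `ab`, and `s` is not on this face. -/
def RowW : Prop :=
  ∀ (V : Type) [Finite V] (G : SimpleGraph V) (σ : Equiv.Perm G.Dart) (ℓ : Sym2 V → ℝ) (h : V → ℝ)
    (s t : V), G.Connected → PlaneMap G σ → St G ℓ h s t → (∃ a b, NT G ℓ h a b) →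
    ∃ (a b w : V) (hab : G.Adj a b), NT G ℓ h a b ∧ Le G ℓ h a w ∧ Le G ℓ h b w ∧
      w ∈ onFace σ ⟨(a, b), hab⟩ ∧ s ∉ onFace σ ⟨(a, b), hab⟩

/-- (P) preprocessing: new lengths which make every non-tight edge the strict shortest connection
of its ends, and change the metric by a factor at most 2. -/
def RowP : Prop :=
  ∀ (V : Type) [Finite V] (G : SimpleGraph V) (ℓ : Sym2 V → ℝ) (s t : V), G.Connected → s ≠ t →
    (∀ e ∈ G.edgeSet, 0 < ℓ e) →
    (∀ v, pathDist G ℓ s v + pathDist G ℓ v t = pathDist G ℓ s t) →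
    ∃ ℓ' : Sym2 V → ℝ, St G ℓ' (pathDist G ℓ s) s t ∧
      ∀ x y, pathDist G ℓ' x y ≤ pathDist G ℓ x y ∧ pathDist G ℓ x y ≤ 2 * pathDist G ℓ' x y

/-- (T) all edges tight: the hypotheses of row F hold. -/
def RowT : Prop :=
  ∀ (V : Type) [Finite V] (G : SimpleGraph V) (ℓ : Sym2 V → ℝ) (h : V → ℝ) (s t : V),
    G.Connected → St G ℓ h s t → (∀ a b, ¬ NT G ℓ h a b) →
    (∀ u v, G.Adj u v → pathDist G ℓ s u + ℓ s(u, v) + pathDist G ℓ v t = pathDist G ℓ s t ∨
      pathDist G ℓ s v + ℓ s(u, v) + pathDist G ℓ u t = pathDist G ℓ s t)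

/-- the final form: every vertex on a geodesic between two cofacial vertices. -/
def RowG (f : ℕ → ℝ) : Prop :=
  ∀ (V : Type) [Finite V] (G : SimpleGraph V) (σ : Equiv.Perm G.Dart) (d₀ : G.Dart)
    (ℓ : Sym2 V → ℝ) (s t : V), G.Connected → PlaneMap G σ → s ∈ onFace σ d₀ → t ∈ onFace σ d₀ →
    (∀ e ∈ G.edgeSet, 0 < ℓ e) →
    (∀ v, pathDist G ℓ s v + pathDist G ℓ v t = pathDist G ℓ s t) →
    ∃ n : ℕ, n ≤ Nat.card V + Nat.card G.edgeSet ∧ EmbedsL1 (pathDist G ℓ) (2 * (2 + 4 * f (n ^ 2)))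

end Vale.Agent.P235.W1
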