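/-
P235-M, wider class W1 (helper26): row W.  If there is a non-tight edge, there is one with a face
on which its ends have a common upper bound.  Only the angle count (rowC1) is used.
-/
import Vale.Agent.P235.R2.H26.W1Defs
import Vale.Agent.P235.R2.H90.C1

namespace Vale.Agent.P235.W1

open Vale.Agent.P235 Vale.Agent.P235.Red Equiv

section basic

variable {V : Type} {G : SimpleGraph V} {ℓ : Sym2 V → ℝ} {h : V → ℝ} {s t : V}

theorem St.tlt (hS : St G ℓ h s t) {u v : V} (e : Tt G ℓ h u v) : h u < h v := by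
  have h1 := hS.pos s(u, v) ((SimpleGraph.mem_edgeSet _).2 e.1)
  have h2 := e.2
  linarith

theorem St.le_h (hS : St G ℓ h s t) {u v : V} (e : Le G ℓ h u v) : u = v ∨ h u < h v := by
  induction e with
  | refl => exact Or.inl rfl
  | tail _ e ih =>
    right
    rcases ih with rfl | ih
    · exact hS.tlt e
    · exact ih.trans (hS.tlt e)

theorem St.antisymm (hS : St G ℓ h s t) {u v : V} (e : Le G ℓ h u v) (e' : Le G ℓ h v u) :
    u = v := by
  rcases hS.le_h e with h1 | h1
  · exact h1
  · rcases hS.le_h e' with h2 | h2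
    · exact h2.symm
    · exact absurd h1 (not_lt.2 h2.le)

theorem Le.walk {u v : V} (e : Le G ℓ h u v) : ∃ p : G.Walk u v,
    (p.edges.map ℓ).sum = h v - h u ∧ ∀ q ∈ p.edges, ∃ x y, q = s(x, y) ∧ Tt G ℓ h x y := by
  induction e with
  | refl => exact ⟨SimpleGraph.Walk.nil, by simp, by simp⟩
  | @tail b c _ e ih =>
    obtain ⟨p, hp, hq⟩ := ih
    refine ⟨p.concat e.1, ?_, ?_⟩
    · rw [SimpleGraph.Walk.edges_concat, List.concat_eq_append, List.map_append, List.sum_append,
        hp]
      simp only [List.map_cons, List.map_nil, List.sum_cons, List.sum_nil, add_zero]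
      have := e.2
      linarith
    · intro q hq'
      rw [SimpleGraph.Walk.edges_concat, List.concat_eq_append, List.mem_append] at hq'
      rcases hq' with h1 | h1
      · exact hq q h1
      · rw [List.mem_singleton] at h1
        exact ⟨b, c, h1, e⟩

theorem NT.symm {a b : V} (hab : NT G ℓ h a b) : NT G ℓ h b a :=
  ⟨hab.1.symm, hab.2.2, hab.2.1⟩

theorem NT.ne_tight {a b x y : V} (hab : NT G ℓ h a b) (hxy : Tt G ℓ h x y) :
    s(a, b) ≠ s(x, y) := by
  intro e
  rcases Sym2.eq_iff.1 e with ⟨rfl, rfl⟩ | ⟨rfl, rfl⟩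
  · exact hab.2.1 hxy
  · exact hab.2.2 hxy

theorem St.inc (hS : St G ℓ h s t) {a b : V} (hab : NT G ℓ h a b) : ¬ Le G ℓ h a b := by
  intro e
  obtain ⟨p, hp, hq⟩ := e.walk
  have h1 := hS.nr a b hab p (fun h2 => by
    obtain ⟨x, y, h3, h4⟩ := hq _ h2
    exact hab.ne_tight h4 h3)
  have h2 := hS.lip a b hab.1
  linarith

theorem St.bot [Finite V] (hS : St G ℓ h s t) (v : V) : Le G ℓ h s v := by
  by_contra hv
  obtain ⟨w, hw, hmin⟩ := Set.exists_min_image {v | ¬ Le G ℓ h s v} h (Set.toFinite _) ⟨v, hv⟩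
  have hws : w ≠ s := by
    rintro rfl
    exact hw Relation.ReflTransGen.refl
  obtain ⟨u, hu⟩ := hS.low w hws
  by_cases h1 : Le G ℓ h s u
  · exact hw (h1.tail hu)
  · exact absurd (hS.tlt hu) (not_lt.2 (hmin u h1))

theorem St.top [Finite V] (hS : St G ℓ h s t) (v : V) : Le G ℓ h v t := by
  by_contra hv
  obtain ⟨w, hw, hmax⟩ := Set.exists_max_image {v | ¬ Le G ℓ h v t} h (Set.toFinite _) ⟨v, hv⟩
  have hws : w ≠ t := by
    rintro rfl
    exact hw Relation.ReflTransGen.refl
  obtain ⟨u, hu⟩ := hS.high w hws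
  by_cases h1 : Le G ℓ h u t
  · exact hw (Relation.ReflTransGen.head hu h1)
  · exact absurd (hS.tlt hu) (not_lt.2 (hmax u h1))

theorem St.ne_s [Finite V] (hS : St G ℓ h s t) {a b : V} (hab : NT G ℓ h a b) : a ≠ s := by
  rintro rfl
  exact hS.inc hab (hS.bot b)

theorem St.ne_t [Finite V] (hS : St G ℓ h s t) {a b : V} (hab : NT G ℓ h a b) : a ≠ t := by
  rintro rfl
  exact hS.inc hab.symm (hS.top b)

end basic

/-- a generic refinement of `h` with values in `[0, 1]` -/
theorem exists_rank {V : Type} [Finite V] (h : V → ℝ) : ∃ r : V → ℝ, Function.Injective r ∧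
    (∀ u v, h u < h v → r u < r v) ∧ ∀ v, 0 ≤ r v ∧ r v ≤ 1 := by
  classical
  have := Fintype.ofFinite V
  let e := Fintype.equivFin V
  let L : V → V → Prop := fun x y => h x < h y ∨ (h x = h y ∧ e x < e y)
  have htr : ∀ x y z, L x y → L y z → L x z := by
    rintro x y z (h1 | ⟨h1, h1'⟩) (h2 | ⟨h2, h2'⟩)
    · exact Or.inl (h1.trans h2)
    · exact Or.inl (h2 ▸ h1)
    · exact Or.inl (h1 ▸ h2)
    · exact Or.inr ⟨h1.trans h2, h1'.trans h2'⟩
  have hirr : ∀ x, ¬ L x x := by
    rintro x (h1 | ⟨_, h1⟩)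
    · exact lt_irrefl _ h1
    · exact lt_irrefl _ h1
  have htri : ∀ x y, x ≠ y → L x y ∨ L y x := by
    intro x y hxy
    rcases lt_trichotomy (h x) (h y) with h1 | h1 | h1
    · exact Or.inl (Or.inl h1)
    · rcases lt_trichotomy (e x) (e y) with h2 | h2 | h2
      · exact Or.inl (Or.inr ⟨h1, h2⟩)
      · exact absurd (e.injective h2) hxy
      · exact Or.inr (Or.inr ⟨h1.symm, h2⟩)
    · exact Or.inr (Or.inl h1)
  let R : V → ℕ := fun x => (Finset.univ.filter fun y => L y x).card
  have hR : ∀ x y, L x y → R x < R y := by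
    intro x y hxy
    refine Finset.card_lt_card ?_
    rw [Finset.ssubset_iff_of_subset]
    · exact ⟨x, by simpa using hxy, by simpa using hirr x⟩
    · intro z hz
      simp only [Finset.mem_filter, Finset.mem_univ, true_and] at hz ⊢
      exact htr _ _ _ hz hxy
  have hRc : ∀ x, R x ≤ Fintype.card V := fun x => Finset.card_le_univ _
  refine ⟨fun x => (R x : ℝ) / Fintype.card V, ?_, ?_, ?_⟩
  · intro x y hxy
    by_contra hne
    have hpos : (0 : ℝ) < Fintype.card V := by
      have : 0 < Fintype.card V := Fintype.card_pos_iff.2 ⟨x⟩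
      exact_mod_cast this
    have h1 : (R x : ℝ) = R y := by
      have h2 : (R x : ℝ) / Fintype.card V = R y / Fintype.card V := hxy
      field_simp at h2
      exact h2
    have h2 : R x = R y := by exact_mod_cast h1
    rcases htri x y hne with h3 | h3
    · exact absurd (hR _ _ h3) (by omega)
    · exact absurd (hR _ _ h3) (by omega)
  · intro u v huv
    have hpos : (0 : ℝ) < Fintype.card V := by
      have : 0 < Fintype.card V := Fintype.card_pos_iff.2 ⟨u⟩
      exact_mod_cast this
    have h1 : R u < R v := hR _ _ (Or.inl huv)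
    have h2 : (R u : ℝ) < R v := by exact_mod_cast h1
    exact div_lt_div_of_pos_right h2 hpos
  · intro v
    have hpos : (0 : ℝ) < Fintype.card V := by
      have : 0 < Fintype.card V := Fintype.card_pos_iff.2 ⟨v⟩
      exact_mod_cast this
    refine ⟨by positivity, ?_⟩
    rw [div_le_one hpos]
    exact_mod_cast hRc v

/-- the valley of a face is its strict minimum -/
theorem face_min {V : Type} [Finite V] {G : SimpleGraph V} {σ : Equiv.Perm G.Dart} {g : V → ℝ}
    {s t : V} (hP : PlaneMap G σ) (hU : UpDown G g s t) {p d : G.Dart} (hpd : faceNext σ p = d)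
    (hp : g p.snd < g p.fst) (hd : g d.fst < g d.snd) (e : G.Dart)
    (he : (faceNext σ).SameCycle d e) : e = d ∨ g d.fst < g e.fst := by
  classical
  have := Fintype.ofFinite V
  have : Finite G.Dart := inferInstance
  have hfst : ∀ d : G.Dart, (faceNext σ d).fst = d.snd := fun d => hP.fst d.symm
  have key : ∀ e0 : G.Dart, (faceNext σ).SameCycle d e0 →
      (∀ e, (faceNext σ).SameCycle d e → g e0.fst ≤ g e.fst) → e0 = d := by
    intro e0 h0 hmin
    set q : G.Dart := (faceNext σ)⁻¹ e0 with hq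
    have hqe : faceNext σ q = e0 := Equiv.apply_symm_apply _ _
    have hsq : (faceNext σ).SameCycle d q :=
      Equiv.Perm.sameCycle_apply_right.1 (by rw [hqe]; exact h0)
    have hq1 : g q.snd < g q.fst := by
      have h1 := hmin q hsq
      rw [← hqe, hfst] at h1
      exact lt_of_le_of_ne h1 (hU.ne _ _ q.adj).symm
    have he1 : g e0.fst < g e0.snd := by
      have h1 := hmin (faceNext σ e0) (Equiv.Perm.sameCycle_apply_right.2 h0)
      rw [hfst] at h1
      exact lt_of_le_of_ne h1 (hU.ne _ _ e0.adj)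
    have hpq : p = q := by
      refine (R2.H90.rowC1 V G σ g s t hP hU).2.2.2 p q ?_ hp (by rw [hpd]; exact hd) hq1
        (by rw [hqe]; exact he1)
      rw [← hpd] at hsq
      exact Equiv.Perm.sameCycle_apply_left.1 hsq
    rw [← hqe, ← hpq, hpd]
  obtain ⟨e0, h0, hmin⟩ := Set.exists_min_image {e | (faceNext σ).SameCycle d e}
    (fun e : G.Dart => g e.fst) (Set.toFinite _) ⟨d, Equiv.Perm.SameCycle.refl _ _⟩
  have h1 := key e0 h0 hmin
  subst h1
  by_cases h2 : g e0.fst < g e.fst
  · exact Or.inr h2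
  · left
    refine key e he fun e' he' => ?_
    exact (not_lt.1 h2).trans (hmin e' he')

section main

variable {V : Type} {G : SimpleGraph V} {ℓ : Sym2 V → ℝ} {h : V → ℝ} {s t : V}

open Classical in
/-- a height in which `a`, `b` are neighbours and everything not above them is below them -/
noncomputable def gg (G : SimpleGraph V) (ℓ : Sym2 V → ℝ) (h r : V → ℝ) (a b : V) (α β : ℝ)
    (x : V) : ℝ :=
  if x = a then α else if x = b then β else
    if Le G ℓ h a x ∨ Le G ℓ h b x then r x + 3 else r x - 3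

theorem gg_mono (hS : St G ℓ h s t) {r : V → ℝ} (hr : ∀ u v, h u < h v → r u < r v)
    (hr1 : ∀ v, 0 ≤ r v ∧ r v ≤ 1) {a b : V} (hab : NT G ℓ h a b) {α β : ℝ}
    (hα : 0 ≤ α ∧ α ≤ 1) (hβ : 0 ≤ β ∧ β ≤ 1) {u v : V} (e : Tt G ℓ h u v) :
    gg G ℓ h r a b α β u < gg G ℓ h r a b α β v := by
  have hne : u ≠ v := e.1.ne
  have h1 := hr1 u
  have h2 := hr1 v
  have h3 := hr u v (hS.tlt e)
  have L1 : Le G ℓ h u v := Relation.ReflTransGen.single e
  unfold gg
  by_cases hua : u = a
  · subst hua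
    have hvb : v ≠ b := by rintro rfl; exact hab.2.1 e
    rw [if_pos rfl, if_neg hne.symm, if_neg hvb, if_pos (Or.inl L1)]
    linarith [hα.2]
  by_cases hub : u = b
  · subst hub
    have hva : v ≠ a := by rintro rfl; exact hab.2.2 e
    rw [if_neg hua, if_pos rfl, if_neg hva, if_neg hne.symm, if_pos (Or.inr L1)]
    linarith [hβ.2]
  rw [if_neg hua, if_neg hub]
  by_cases hva : v = a
  · subst hva
    rw [if_pos rfl, if_neg]
    · linarith [hα.1]
    · rintro (h4 | h4)
      · exact hua (hS.antisymm L1 h4)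
      · exact hS.inc hab.symm (h4.trans L1)
  by_cases hvb : v = b
  · subst hvb
    rw [if_neg hva, if_pos rfl, if_neg]
    · linarith [hβ.1]
    · rintro (h4 | h4)
      · exact hS.inc hab (h4.trans L1)
      · exact hub (hS.antisymm L1 h4)
  rw [if_neg hva, if_neg hvb]
  by_cases h4 : Le G ℓ h a u ∨ Le G ℓ h b u
  · have h5 : Le G ℓ h a v ∨ Le G ℓ h b v := h4.imp (fun h5 => h5.trans L1) fun h5 => h5.trans L1
    rw [if_pos h4, if_pos h5]
    linarith
  · rw [if_neg h4]
    split_ifs <;> linarith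

theorem gg_inj {r : V → ℝ} (hri : Function.Injective r) (hr1 : ∀ v, 0 ≤ r v ∧ r v ≤ 1) {a b : V}
    {α β : ℝ} (hα : 0 ≤ α ∧ α ≤ 1) (hβ : 0 ≤ β ∧ β ≤ 1) (hne : α ≠ β) :
    Function.Injective (gg G ℓ h r a b α β) := by
  intro u v huv
  by_contra hn
  have h1 := hr1 u
  have h2 := hr1 v
  have h3 : r u ≠ r v := fun e => hn (hri e)
  unfold gg at huv
  split_ifs at huv <;>
    first
      | (subst_vars; exact hn rfl)
      | (exact hne huv)
      | (exact hne huv.symm)
      | (exact h3 (by linarith))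

theorem gg_updown [Finite V] (hS : St G ℓ h s t) {r : V → ℝ} (hri : Function.Injective r)
    (hr : ∀ u v, h u < h v → r u < r v)
    (hr1 : ∀ v, 0 ≤ r v ∧ r v ≤ 1) {a b : V} (hab : NT G ℓ h a b) {α β : ℝ}
    (hα : 0 ≤ α ∧ α ≤ 1) (hβ : 0 ≤ β ∧ β ≤ 1) (hne : α ≠ β) :
    UpDown G (gg G ℓ h r a b α β) s t := by
  have hm : ∀ {u v : V}, Tt G ℓ h u v → gg G ℓ h r a b α β u < gg G ℓ h r a b α β v :=
    fun e => gg_mono hS hr hr1 hab hα hβ e
  have hle : ∀ {u v : V}, Le G ℓ h u v →
      u = v ∨ gg G ℓ h r a b α β u < gg G ℓ h r a b α β v := by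
    intro u v e
    induction e with
    | refl => exact Or.inl rfl
    | tail _ e ih =>
      right
      rcases ih with rfl | ih
      · exact hm e
      · exact ih.trans (hm e)
  refine ⟨fun u v huv e => ?_, fun v hv => ?_, fun v hv => ?_, ?_⟩
  · exact huv.ne (gg_inj hri hr1 hα hβ hne e)
  · obtain ⟨u, hu⟩ := hS.low v hv
    exact ⟨u, hu.1.symm, hm hu⟩
  · obtain ⟨u, hu⟩ := hS.high v hv
    exact ⟨u, hu.1, hm hu⟩
  · have h1 : s ≠ a := (hS.ne_s hab).symm
    rcases hle (hS.bot a) with h2 | h2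
    · exact absurd h2 h1
    · rcases hle (hS.top a) with h3 | h3
      · exact absurd h3 (hS.ne_t hab)
      · exact h2.trans h3

/-- one side of a non-tight edge: all vertices are above one of its ends -/
theorem vside [Finite V] {σ : Equiv.Perm G.Dart} (hP : PlaneMap G σ) (hS : St G ℓ h s t)
    {a b : V} (hab : NT G ℓ h a b) :
    ∃ x : G.Dart, ((x.fst = a ∧ x.snd = b) ∨ (x.fst = b ∧ x.snd = a)) ∧
      (∀ c ∈ onFace σ x, Le G ℓ h a c ∨ Le G ℓ h b c) ∧ ¬ (faceNext σ).SameCycle x x.symm := by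
  classical
  have := Fintype.ofFinite V
  have : Finite G.Dart := inferInstance
  obtain ⟨r, hri, hr, hr1⟩ := exists_rank h
  set g : V → ℝ := gg G ℓ h r a b 0 (1 / 2) with hg
  set g' : V → ℝ := gg G ℓ h r a b (1 / 2) 0 with hg'
  have hU : UpDown G g s t := gg_updown hS hri hr hr1 hab (by norm_num) (by norm_num) (by norm_num)
  have hU' : UpDown G g' s t :=
    gg_updown hS hri hr hr1 hab (by norm_num) (by norm_num) (by norm_num)
  have hne : a ≠ b := hab.1.ne
  have ga : g a = 0 := by rw [hg]; unfold gg; rw [if_pos rfl]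
  have gb : g b = 1 / 2 := by rw [hg]; unfold gg; rw [if_neg hne.symm, if_pos rfl]
  have ga' : g' a = 1 / 2 := by rw [hg']; unfold gg; rw [if_pos rfl]
  have gb' : g' b = 0 := by rw [hg']; unfold gg; rw [if_neg hne.symm, if_pos rfl]
  have gother : ∀ x, x ≠ a → x ≠ b → g' x = g x ∧ (g x ≤ -2 ∨ 3 ≤ g x) := by
    intro x h1 h2
    have h3 := hr1 x
    rw [hg, hg']
    unfold gg
    rw [if_neg h1, if_neg h2, if_neg h1, if_neg h2]
    refine ⟨rfl, ?_⟩
    split_ifs
    · right; linarith
    · left; linarith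
  have gup : ∀ c, g a < g c → Le G ℓ h a c ∨ Le G ℓ h b c := by
    intro c hc
    by_cases h1 : c = a
    · subst h1; exact absurd hc (lt_irrefl _)
    by_cases h2 : c = b
    · subst h2; exact Or.inr Relation.ReflTransGen.refl
    by_contra h3
    have h4 := hr1 c
    have h5 : g c = r c - 3 := by
      rw [hg]; unfold gg; rw [if_neg h1, if_neg h2, if_neg h3]
    rw [ga, h5] at hc
    linarith
  -- the dart
  set x : G.Dart := ⟨(a, b), hab.1⟩ with hx
  have xf : x.fst = a := rfl
  have xs : x.snd = b := rfl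
  -- darts at `a` other than `x` have the same direction for `g` and `g'`
  have hsame : ∀ d : G.Dart, d.fst = a → d ≠ x → (g d.fst < g d.snd ↔ g' d.fst < g' d.snd) := by
    intro d hd hdx
    have h1 : d.snd ≠ a := fun e => d.adj.ne (hd.trans e.symm)
    have h2 : d.snd ≠ b := fun e => hdx (SimpleGraph.Dart.ext _ _ (Prod.ext hd e))
    obtain ⟨h3, h4⟩ := gother _ h1 h2
    rw [hd, ga, ga', h3]
    rcases h4 with h4 | h4
    · constructor <;> intro h5 <;> linarith
    · constructor <;> intro h5 <;> linarith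
  have hcycfst : ∀ c d : G.Dart, σ.SameCycle c d → d.fst = c.fst := by
    intro c d hcd
    have := Fintype.ofFinite G.Dart
    obtain ⟨i, -, hi⟩ := hcd.exists_pow_eq'
    have key : ∀ i : ℕ, ((σ ^ i) c).fst = c.fst := by
      intro i
      induction i with
      | zero => simp
      | succ i ih => rw [pow_succ', Perm.mul_apply, hP.fst, ih]
    rw [← hi, key]
  -- `σ x ≠ x`
  obtain ⟨w, hw⟩ := hS.high a (hS.ne_t hab)
  obtain ⟨w', hw'⟩ := hS.low a (hS.ne_s hab)
  set du : G.Dart := ⟨(a, w), hw.1⟩ with hdu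
  set dd : G.Dart := ⟨(a, w'), hw'.1.symm⟩ with hdd
  have hxdu : x ≠ du := by
    intro e
    have : b = w := congrArg (fun d : G.Dart => d.snd) e
    exact hab.2.1 (this ▸ hw)
  have hσx : σ x ≠ x := by
    intro e
    have h1 := hP.cyc x du rfl
    have h2 : Function.IsFixedPt σ x := e
    exact hxdu (((Equiv.Perm.SameCycle.eq_of_left h1) h2))
  -- one of the two neighbours of `x` in the rotation goes up
  have hor : g (σ⁻¹ x).fst < g (σ⁻¹ x).snd ∨ g (σ x).fst < g (σ x).snd := by
    by_contra hcon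
    rw [not_or] at hcon
    obtain ⟨hc1, hc2⟩ := hcon
    have hup : g' du.fst < g' du.snd := gg_mono hS hr hr1 hab (by norm_num) (by norm_num) hw
    have hdn : ¬ g' dd.fst < g' dd.snd := by
      have : g' w' < g' a := gg_mono hS hr hr1 hab (by norm_num) (by norm_num) hw'
      exact not_lt.2 this.le
    obtain ⟨d, hd1, hd2, hd3⟩ := R2.H90.cyc_change σ (fun d => g' d.fst < g' d.snd)
      (hP.cyc du dd rfl) hup hdn
    have hdf : d.fst = a := hcycfst du d hd1
    have hdx : d ≠ x := by
      rintro rfl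
      have h1 : g' a < g' b := hd2
      rw [ga', gb'] at h1
      norm_num at h1
    have hσd : σ d ≠ x := by
      intro e
      have h1 : d = σ⁻¹ x := by rw [← e]; simp
      rw [← h1] at hc1
      exact hc1 ((hsame d hdf hdx).2 hd2)
    have hσf : (σ d).fst = a := (hP.fst d).trans hdf
    have h1 : g d.fst < g d.snd := (hsame d hdf hdx).2 hd2
    have h2 : ¬ g (σ d).fst < g (σ d).snd := fun h3 => hd3 ((hsame _ hσf hσd).1 h3)
    have h3 : g (σ d).snd < g (σ d).fst :=
      lt_of_le_of_ne (not_lt.1 h2) (hU.ne _ _ (σ d).adj).symm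
    have h4 : g (σ x).snd < g (σ x).fst :=
      lt_of_le_of_ne (not_lt.1 hc2) (hU.ne _ _ (σ x).adj).symm
    have h5 : g x.fst < g x.snd := by
      rw [xf, xs, ga, gb]; norm_num
    exact hdx ((R2.H90.rowC1 V G σ g s t hP hU).1 d x hdf h1 h3 h5 h4)
  rcases hor with hor | hor
  · -- valley at `x`
    set p : G.Dart := (σ⁻¹ x).symm with hp
    have hpx : faceNext σ p = x := by
      show σ p.symm = x
      rw [hp, SimpleGraph.Dart.symm_symm]
      exact Equiv.apply_symm_apply _ _
    have hpd : g p.snd < g p.fst := hor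
    have hxu : g x.fst < g x.snd := by
      rw [xf, xs, ga, gb]; norm_num
    have hmin := face_min hP hU hpx hpd hxu
    refine ⟨x, Or.inl ⟨rfl, rfl⟩, ?_, ?_⟩
    · rintro c ⟨e, he, rfl⟩
      rcases hmin e he with h1 | h1
      · rw [h1]; exact Or.inl Relation.ReflTransGen.refl
      · exact gup _ h1
    · intro hsc
      have h1 : (faceNext σ).SameCycle x (faceNext σ x.symm) :=
        Equiv.Perm.sameCycle_apply_right.2 hsc
      have h2 : faceNext σ x.symm = σ x := by
        show σ x.symm.symm = σ x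
        rw [SimpleGraph.Dart.symm_symm]
      rw [h2] at h1
      rcases hmin _ h1 with h3 | h3
      · exact hσx h3
      · rw [hP.fst] at h3
        exact lt_irrefl _ h3
  · -- valley at `σ x`
    have h2 : faceNext σ x.symm = σ x := by
      show σ x.symm.symm = σ x
      rw [SimpleGraph.Dart.symm_symm]
    have hpd : g x.symm.snd < g x.symm.fst := by
      show g a < g b
      rw [ga, gb]; norm_num
    have hmin := face_min hP hU h2 hpd hor
    refine ⟨x.symm, Or.inr ⟨rfl, rfl⟩, ?_, ?_⟩
    · rintro c ⟨e, he, rfl⟩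
      have he' : (faceNext σ).SameCycle (σ x) e := by
        rw [← h2]
        exact Equiv.Perm.sameCycle_apply_left.2 he
      rcases hmin e he' with h1 | h1
      · rw [h1, hP.fst]; exact Or.inl Relation.ReflTransGen.refl
      · rw [hP.fst] at h1
        exact gup _ h1
    · intro hsc
      rw [SimpleGraph.Dart.symm_symm] at hsc
      have he' : (faceNext σ).SameCycle (σ x) x := by
        rw [← h2]
        exact Equiv.Perm.sameCycle_apply_left.2 hsc
      rcases hmin _ he' with h3 | h3
      · exact hσx h3.symm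
      · rw [hP.fst] at h3
        exact lt_irrefl _ h3

end main

theorem rowW : RowW := by
  classical
  intro V _ G σ ℓ h s t hc hP hS hex
  have := Fintype.ofFinite V
  have : Finite G.Dart := inferInstance
  -- a non-tight edge with maximal peak
  obtain ⟨⟨a, b⟩, hab, hmax⟩ := Set.exists_max_image {q : V × V | NT G ℓ h q.1 q.2}
    (fun q => h q.1 + h q.2 + ℓ s(q.1, q.2)) (Set.toFinite _)
    (by obtain ⟨a, b, hab⟩ := hex; exact ⟨(a, b), hab⟩)
  have hab : NT G ℓ h a b := hab
  -- orient it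
  have main : ∀ a b : V, NT G ℓ h a b →
      (∀ q : V × V, NT G ℓ h q.1 q.2 → h q.1 + h q.2 + ℓ s(q.1, q.2) ≤ h a + h b + ℓ s(a, b)) →
      ∀ x : G.Dart, x.fst = a → x.snd = b →
      (∀ c ∈ onFace σ x, Le G ℓ h a c ∨ Le G ℓ h b c) → ¬ (faceNext σ).SameCycle x x.symm →
      ∃ (a b w : V) (hab : G.Adj a b), NT G ℓ h a b ∧ Le G ℓ h a w ∧ Le G ℓ h b w ∧
        w ∈ onFace σ ⟨(a, b), hab⟩ ∧ s ∉ onFace σ ⟨(a, b), hab⟩ := by
    rintro a b hab hmax x rfl rfl hV hns
    have hfst : ∀ d : G.Dart, (faceNext σ d).fst = d.snd := fun d => hP.fst d.symm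
    have hsx : s ∉ onFace σ x := by
      intro h1
      rcases hV s h1 with h2 | h2
      · exact hS.ne_s hab (hS.antisymm h2 (hS.bot _))
      · exact hS.ne_s hab.symm (hS.antisymm h2 (hS.bot _))
    -- from `b` up the face
    obtain ⟨d, hd1, hd2, hd3⟩ := R2.H90.cyc_change (faceNext σ)
      (fun d : G.Dart => Le G ℓ h x.snd d.fst) (a := faceNext σ x) (b := x)
      (Equiv.Perm.sameCycle_apply_left.2 (Equiv.Perm.SameCycle.refl _ _))
      (by rw [hfst]; exact Relation.ReflTransGen.refl) (hS.inc hab.symm)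
    rw [hfst] at hd3
    have hxd : (faceNext σ).SameCycle x d := Equiv.Perm.sameCycle_apply_left.1 hd1
    have hadj : G.Adj d.fst d.snd := d.adj
    have hVd : Le G ℓ h x.fst d.snd := by
      have h1 : d.snd ∈ onFace σ x :=
        ⟨faceNext σ d, Equiv.Perm.sameCycle_apply_right.2 hxd, hfst d⟩
      exact (hV _ h1).resolve_right hd3
    by_cases ht1 : Tt G ℓ h d.fst d.snd
    · exact absurd (hd2.tail ht1) hd3
    by_cases ht2 : Tt G ℓ h d.snd d.fst
    · exact ⟨x.fst, x.snd, d.fst, x.adj, hab, hVd.tail ht2, hd2, ⟨d, hxd, rfl⟩, hsx⟩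
    -- another non-tight edge
    exfalso
    have hnt : NT G ℓ h d.snd d.fst := ⟨hadj.symm, ht2, ht1⟩
    have hm := hmax (d.snd, d.fst) hnt
    obtain ⟨p1, hp1, hq1⟩ := hVd.walk
    obtain ⟨p2, hp2, hq2⟩ := hd2.walk
    have hedge : s(x.fst, x.snd) ≠ s(d.snd, d.fst) := by
      intro e
      rcases Sym2.eq_iff.1 e with ⟨e1, e2⟩ | ⟨e1, e2⟩
      · -- `d = x.symm`
        have h1 : d = x.symm := SimpleGraph.Dart.ext _ _ (Prod.ext e2.symm e1.symm)
        rw [h1] at hxd
        exact hns hxd
      · -- `d = x`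
        rw [← e1] at hd2
        exact hS.inc hab.symm hd2
    have hlt := hS.nr x.fst x.snd hab ((p1.append (SimpleGraph.Walk.cons hadj.symm
      SimpleGraph.Walk.nil)).append p2.reverse) (by
        rw [SimpleGraph.Walk.edges_append, SimpleGraph.Walk.edges_append,
          SimpleGraph.Walk.edges_reverse, SimpleGraph.Walk.edges_cons,
          SimpleGraph.Walk.edges_nil]
        simp only [List.mem_append, List.mem_cons, List.not_mem_nil, or_false, List.mem_reverse]
        rintro ((h1 | h1) | h1)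
        · obtain ⟨y, z, h2, h3⟩ := hq1 _ h1
          exact hab.ne_tight h3 h2
        · exact hedge h1
        · obtain ⟨y, z, h2, h3⟩ := hq2 _ h1
          exact hab.ne_tight h3 h2)
    rw [SimpleGraph.Walk.edges_append, SimpleGraph.Walk.edges_append,
      SimpleGraph.Walk.edges_reverse, SimpleGraph.Walk.edges_cons, SimpleGraph.Walk.edges_nil,
      List.map_append, List.map_append, List.sum_append, List.sum_append, List.map_reverse,
      List.sum_reverse, hp1, hp2] at hlt
    simp only [List.map_cons, List.map_nil, List.sum_cons, List.sum_nil, add_zero] at hlt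
    simp only at hm
    linarith
  obtain ⟨x, hx, hV, hns⟩ := vside hP hS hab
  rcases hx with ⟨h1, h2⟩ | ⟨h1, h2⟩
  · exact main a b hab (fun q hq => hmax q hq) x h1 h2 hV hns
  · refine main b a hab.symm (fun q hq => ?_) x h1 h2 (fun c hc => (hV c hc).symm) hns
    have h3 := hmax q hq
    simp only at h3
    rw [Sym2.eq_swap (a := b) (b := a)]
    linarith

end Vale.Agent.P235.W1
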