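/-
P235-M, TERM(L) (helper26): RowW2 from RowK33.  Three pairwise incomparable vertices of `L` are not
all adjacent to one connected set outside `L`.
-/
import Vale.Agent.P235.R2.H611.QDefs

namespace Vale.Agent.P235.Quo

open Relation

section low

variable {V : Type} [Finite V] {G : SimpleGraph V} {L : Set V} {h : V → ℝ} {s : V}
  {U : V → V → Prop}

/-- the bottom vertex is below everything in `L` -/
theorem w2_bot (hU : ∀ u v, U u v → G.Adj u v ∧ h u < h v ∧ u ∈ L ∧ v ∈ L)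
    (hlow : ∀ v ∈ L, v ≠ s → ∃ u, U u v) : ∀ v ∈ L, ReflTransGen U s v := by
  by_contra hcon
  push Not at hcon
  obtain ⟨v, hv, hv'⟩ := hcon
  obtain ⟨w, hw, hmin⟩ := Set.exists_min_image {v | v ∈ L ∧ ¬ ReflTransGen U s v} h
    (Set.toFinite _) ⟨v, hv, hv'⟩
  have hws : w ≠ s := by
    rintro rfl
    exact hw.2 ReflTransGen.refl
  obtain ⟨u, hu⟩ := hlow w hw.1 hws
  have h1 := hU u w hu
  by_cases h2 : ReflTransGen U s u
  · exact hw.2 (h2.tail hu)
  · exact absurd h1.2.1 (not_lt.2 (hmin u ⟨h1.2.2.1, h2⟩))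

theorem w2_down (hU : ∀ u v, U u v → G.Adj u v ∧ h u < h v ∧ u ∈ L ∧ v ∈ L)
    (hlow : ∀ v ∈ L, v ≠ s → ∃ u, U u v) {T : Set V} (hT : T ⊆ L) (hTs : s ∉ T)
    (hTn : T.Nonempty) :
    (G.induce {v | ∃ d ∈ T, TransGen U v d}).Connected ∧
      ∀ d ∈ T, ∃ x ∈ {v | ∃ d ∈ T, TransGen U v d}, G.Adj x d := by
  have hbot := w2_bot hU hlow
  obtain ⟨d0, hd0⟩ := hTn
  have hs : s ∈ {v | ∃ d ∈ T, TransGen U v d} := by
    refine ⟨d0, hd0, ?_⟩
    rcases (reflTransGen_iff_eq_or_transGen.1 (hbot d0 (hT hd0))) with h1 | h1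
    · exact absurd (h1 ▸ hd0) hTs
    · exact h1
  constructor
  · have key : ∀ w, ReflTransGen U s w → ∀ hw : w ∈ {v | ∃ d ∈ T, TransGen U v d},
        (G.induce {v | ∃ d ∈ T, TransGen U v d}).Reachable ⟨s, hs⟩ ⟨w, hw⟩ := by
      intro w e
      induction e with
      | refl => intro _; exact SimpleGraph.Reachable.refl _
      | @tail b c _ hbc ih =>
        intro hc
        have hb : b ∈ {v | ∃ d ∈ T, TransGen U v d} := by
          obtain ⟨d, hd, hcd⟩ := hc
          exact ⟨d, hd, TransGen.head hbc hcd⟩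
        refine (ih hb).trans ?_
        have hadj : (G.induce {v | ∃ d ∈ T, TransGen U v d}).Adj ⟨b, hb⟩ ⟨c, hc⟩ :=
          (hU b c hbc).1
        exact hadj.reachable
    have hL : ∀ w ∈ {v | ∃ d ∈ T, TransGen U v d}, w ∈ L := by
      rintro w ⟨d, _, hwd⟩
      obtain ⟨c, hc, _⟩ := (TransGen.head'_iff).1 hwd
      exact (hU w c hc).2.2.1
    have : Nonempty {v | ∃ d ∈ T, TransGen U v d} := ⟨⟨s, hs⟩⟩
    refine ⟨fun x y => ?_⟩
    exact (key x.1 (hbot x.1 (hL x.1 x.2)) x.2).symm.trans (key y.1 (hbot y.1 (hL y.1 y.2)) y.2)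
  · intro d hd
    obtain ⟨u, hu⟩ := hlow d (hT hd) (fun e => hTs (e ▸ hd))
    exact ⟨u, ⟨d, hd, TransGen.single hu⟩, (hU u d hu).1⟩

end low

theorem rowW2 (hK : RowK33) : RowW2 := by
  intro V _ G hG hP L h s t U hU hs ht hlow hhigh K hKc hKL a ha b hb c hc hKa hKb hKcc
  by_contra hcon
  push Not at hcon
  obtain ⟨nab, nba, nac, nca, nbc, ncb⟩ := hcon
  -- heights
  have hlt : ∀ {u v : V}, TransGen U u v → h u < h v := by
    intro u v e
    induction e with
    | single e => exact (hU _ _ e).2.1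
    | tail _ e ih => exact ih.trans (hU _ _ e).2.1
  have hirr : ∀ u, ¬ TransGen U u u := fun u e => lt_irrefl _ (hlt e)
  have hbot := w2_bot hU hlow
  have hU' : ∀ u v, Function.swap U u v → G.Adj u v ∧ (fun v => - h v) u < (fun v => - h v) v ∧
      u ∈ L ∧ v ∈ L := by
    intro u v e
    have h1 := hU v u e
    exact ⟨h1.1.symm, neg_lt_neg h1.2.1, h1.2.2.2, h1.2.2.1⟩
  have hlow' : ∀ v ∈ L, v ≠ t → ∃ u, Function.swap U u v := hhigh
  have htop : ∀ v ∈ L, ReflTransGen U v t := fun v hv =>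
    (reflTransGen_swap).1 (w2_bot (h := fun v => - h v) hU' hlow' v hv)
  let A : Fin 3 → V := ![a, b, c]
  -- the three vertices are pairwise incomparable
  have hA : ∀ i j, i ≠ j → ¬ ReflTransGen U (A i) (A j) := by
    intro i j hij
    fin_cases i <;> fin_cases j <;> first | exact absurd rfl hij | assumption
  have hAL : ∀ i, A i ∈ L := by
    intro i
    fin_cases i
    · exact ha
    · exact hb
    · exact hc
  have hinj : Function.Injective A := by
    intro i j hij
    by_contra hne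
    exact hA i j hne (hij ▸ ReflTransGen.refl)
  have hAt : ∀ i j, ¬ TransGen U (A i) (A j) := by
    intro i j e
    by_cases hij : i = j
    · subst hij; exact hirr _ e
    · exact hA i j hij e.to_reflTransGen
  have hex : ∀ i : Fin 3, ∃ j, i ≠ j := fun i => ⟨i + 1, by fin_cases i <;> decide⟩
  have hAs : ∀ i, A i ≠ s := by
    intro i e
    obtain ⟨j, hij⟩ := hex i
    exact hA i j hij (e ▸ hbot _ (hAL j))
  have hAtt : ∀ i, A i ≠ t := by
    intro i e
    obtain ⟨j, hij⟩ := hex i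
    exact hA j i hij.symm (e ▸ htop _ (hAL j))
  let T : Set V := Set.range A
  have hT : T ⊆ L := by rintro _ ⟨i, rfl⟩; exact hAL i
  have hTs : s ∉ T := by rintro ⟨i, hi⟩; exact hAs i hi
  have hTt : t ∉ T := by rintro ⟨i, hi⟩; exact hAtt i hi
  have hTn : T.Nonempty := ⟨A 0, 0, rfl⟩
  obtain ⟨d1, d2⟩ := w2_down hU hlow hT hTs hTn
  obtain ⟨u1, u2⟩ := w2_down (h := fun v => - h v) hU' hlow' hT hTt hTn
  set D : Set V := {v | ∃ d ∈ T, TransGen U v d} with hD
  set E : Set V := {v | ∃ d ∈ T, TransGen (Function.swap U) v d} with hE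
  have hEm : ∀ v ∈ E, ∃ i, TransGen U (A i) v := by
    rintro v ⟨_, ⟨i, rfl⟩, e⟩
    exact ⟨i, transGen_swap.1 e⟩
  have hDm : ∀ v ∈ D, ∃ i, TransGen U v (A i) := by
    rintro v ⟨_, ⟨i, rfl⟩, e⟩
    exact ⟨i, e⟩
  have hDL : ∀ v ∈ D, v ∈ L := by
    rintro w ⟨d, _, hwd⟩
    obtain ⟨c, hc, _⟩ := (TransGen.head'_iff).1 hwd
    exact (hU w c hc).2.2.1
  have hEL : ∀ v ∈ E, v ∈ L := by
    rintro w ⟨d, _, hwd⟩
    obtain ⟨c, hc, _⟩ := (TransGen.head'_iff).1 hwd
    exact (hU c w hc).2.2.2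
  have hDE : Disjoint D E := by
    rw [Set.disjoint_left]
    intro v hv hv'
    obtain ⟨i, hi⟩ := hDm v hv
    obtain ⟨j, hj⟩ := hEm v hv'
    exact hAt j i (hj.trans hi)
  have hKD : Disjoint K D := by
    rw [Set.disjoint_left]
    intro v hv hv'
    exact (Set.disjoint_left.1 hKL) hv (hDL v hv')
  have hKE : Disjoint K E := by
    rw [Set.disjoint_left]
    intro v hv hv'
    exact (Set.disjoint_left.1 hKL) hv (hEL v hv')
  have hAK : ∀ j, A j ∉ K := fun j hj => (Set.disjoint_left.1 hKL) hj (hAL j)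
  have hAD : ∀ j, A j ∉ D := fun j hj => by
    obtain ⟨i, hi⟩ := hDm _ hj
    exact hAt j i hi
  have hAE : ∀ j, A j ∉ E := fun j hj => by
    obtain ⟨i, hi⟩ := hEm _ hj
    exact hAt i j hi
  refine hK V G hG hP A ![K, D, E] hinj ?_ ?_ ?_ ?_
  · intro i
    fin_cases i
    · exact hKc
    · exact d1
    · exact u1
  · intro i j hij
    fin_cases i <;> fin_cases j <;>
      first
        | exact absurd rfl hij
        | exact hKD
        | exact hKE
        | exact hKD.symm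
        | exact hKE.symm
        | exact hDE
        | exact hDE.symm
  · intro i j
    fin_cases i
    · exact hAK j
    · exact hAD j
    · exact hAE j
  · intro i j
    fin_cases i
    · fin_cases j
      · exact hKa
      · exact hKb
      · exact hKcc
    · exact d2 (A j) ⟨j, rfl⟩
    · exact u2 (A j) ⟨j, rfl⟩

end Vale.Agent.P235.Quo
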